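import Mathlib
import Vale.Agent.H21.P243Defs
import Vale.Agent.H21.P243Coplanar

/-! Bang's half-area question: the sharp half-area inequality for all finite cylinder coverings
whose axes are parallel to a common plane (in particular, for all coverings whose cylinders use at
most two axis directions). -/

namespace Vale.Agent.Results.P243.Coplanar

open MeasureTheory Vale.Agent.H21.P243
open scoped ENNReal InnerProductSpace

/-- Let `V` be a three-dimensional Euclidean space. If a convex body in `V` is covered by finitely
many cylinders whose axes are all orthogonal to one nonzero vector `w`, then the base areas sum to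
at least half of the smallest area of an orthogonal projection of the body. The bases are
arbitrary sets (outer measure). -/
theorem result {V : Type} [NormedAddCommGroup V] [InnerProductSpace ℝ V] [FiniteDimensional ℝ V]
    [MeasurableSpace V] [BorelSpace V] (hdim : Module.finrank ℝ V = 3)
    (K : Set V) (hK : IsConvexBody K) {m : ℕ} (u : Fin m → V)
    (hu : ∀ i, ‖u i‖ = 1) (B : ∀ i, Set (ℝ ∙ (u i))ᗮ)
    (w : V) (hw : w ≠ 0) (hcop : ∀ i, ⟪u i, w⟫_ℝ = 0)
    (hcov : K ⊆ ⋃ i, cylinder (u i) (B i)) :
    minShadow K / 2 ≤ ∑ i, volume (B i) := by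
  have : Fact (Module.finrank ℝ V = 2 + 1) := ⟨hdim⟩
  have hw' : ‖(‖w‖⁻¹ : ℝ) • w‖ = 1 := by
    rw [norm_smul, norm_inv, norm_norm, inv_mul_cancel₀ (norm_ne_zero_iff.2 hw)]
  have h := coplanar_aux K hK.1 hK.2.1 hK.2.2 u hu (fun i => toMeasurable volume (B i))
    (fun i => measurableSet_toMeasurable _ _) ((‖w‖⁻¹ : ℝ) • w) hw'
    (fun i => by rw [inner_smul_right, hcop i, mul_zero])
    (hcov.trans (Set.iUnion_mono fun i x hx => subset_toMeasurable volume (B i) hx))
  simpa only [measure_toMeasurable] using h

end Vale.Agent.Results.P243.Coplanar
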